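import Vale.Agent.P369.Bd3.B2

/-!
P369 (helper688), FM-BS part 1: the beam splitter on total-photon-number cuts, as rectangular
matrices `Wr s c D₁ D₂ Y₁ Y₂` with entries `ampn s c m r k l` (real), from inputs with at most
`D₁`, `D₂` photons to outputs with at most `Y₁`, `Y₂` photons; intertwining relations with the
(rectangular) annihilation matrices `annR` of the starting files.
-/

set_option linter.all false

namespace Vale.Agent.P369.H688

open Matrix
open scoped Kronecker ComplexOrder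
open Vale.Agent.P369 (Conf up down)
open Vale.Agent.P369A (Ct annR cut)

noncomputable section

variable {n : ℕ} {s c : ℝ}

/-! ### n-mode recursions (raising of outputs) -/

theorem ampn_downA (h : s ^ 2 + c ^ 2 = 1) (j : Fin n) (m l' k l : Conf n) :
    Real.sqrt (m j) * ampn s c (down m j) l' k l =
      s * (Real.sqrt (k j + 1) * ampn s c m l' (up k j) l) +
      c * (Real.sqrt (l j + 1) * ampn s c m l' k (up l j)) := by
  rw [ampn_split (m := m) (l' := l') (k := k) (l := l) j (fun i hi => down_ne m hi)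
      (fun _ _ => rfl) (fun _ _ => rfl) (fun _ _ => rfl),
    ampn_split (m := m) (l' := l') (k := k) (l := l) (k₁ := up k j) j (fun _ _ => rfl)
      (fun _ _ => rfl) (fun i hi => up_ne k hi) (fun _ _ => rfl),
    ampn_split (m := m) (l' := l') (k := k) (l := l) (l₁ := up l j) j (fun _ _ => rfl)
      (fun _ _ => rfl) (fun _ _ => rfl) (fun i hi => up_ne l hi), down_same, up_same, up_same]
  have h := amp_A7 h (m j) (l' j) (k j) (l j)
  rw [← mul_assoc, h]
  ring

theorem ampn_downB (h : s ^ 2 + c ^ 2 = 1) (j : Fin n) (m l' k l : Conf n) :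
    Real.sqrt (l' j) * ampn s c m (down l' j) k l =
      -(c * (Real.sqrt (k j + 1) * ampn s c m l' (up k j) l)) +
      s * (Real.sqrt (l j + 1) * ampn s c m l' k (up l j)) := by
  rw [ampn_split (m := m) (l' := l') (k := k) (l := l) (l₁' := down l' j) j (fun _ _ => rfl)
      (fun i hi => down_ne l' hi) (fun _ _ => rfl) (fun _ _ => rfl),
    ampn_split (m := m) (l' := l') (k := k) (l := l) (k₁ := up k j) j (fun _ _ => rfl)
      (fun _ _ => rfl) (fun i hi => up_ne k hi) (fun _ _ => rfl),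
    ampn_split (m := m) (l' := l') (k := k) (l := l) (l₁ := up l j) j (fun _ _ => rfl)
      (fun _ _ => rfl) (fun _ _ => rfl) (fun i hi => up_ne l hi), down_same, up_same, up_same]
  have h := amp_A8 h (m j) (l' j) (k j) (l j)
  rw [← mul_assoc, h]
  ring

/-! ### photon numbers -/

theorem sum_up (k : Conf n) (j : Fin n) : ∑ i, up k j i = ∑ i, k i + 1 := by
  rw [← Finset.add_sum_erase _ _ (Finset.mem_univ j), ← Finset.add_sum_erase _ _ (Finset.mem_univ j),
    up_same]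
  have : ∑ x ∈ Finset.univ.erase j, up k j x = ∑ x ∈ Finset.univ.erase j, k x :=
    Finset.sum_congr rfl fun i hi => up_ne k (Finset.ne_of_mem_erase hi)
  rw [this]
  ring

theorem up_down (k : Conf n) (j : Fin n) (h : k j ≠ 0) : up (down k j) j = k := by
  funext i
  by_cases hi : i = j
  · subst hi
    rw [up_same, down_same]
    omega
  · rw [up_ne _ hi, down_ne _ hi]

theorem down_up (k : Conf n) (j : Fin n) : down (up k j) j = k := by
  funext i
  by_cases hi : i = j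
  · subst hi
    rw [down_same, up_same]
    omega
  · rw [down_ne _ hi, up_ne _ hi]

theorem up_inj {k l : Conf n} {j : Fin n} (h : up k j = up l j) : k = l := by
  rw [← down_up k j, h, down_up]

theorem sum_down_le (k : Conf n) (j : Fin n) : ∑ i, down k j i ≤ ∑ i, k i := by
  refine Finset.sum_le_sum fun i _ => ?_
  by_cases hi : i = j
  · subst hi
    rw [down_same]
    omega
  · rw [down_ne _ hi]

theorem sum_down (k : Conf n) (j : Fin n) (h : k j ≠ 0) : ∑ i, down k j i + 1 = ∑ i, k i := by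
  rw [← sum_up, up_down k j h]

/-! ### square lowering matrices -/

/-- the annihilation operator of mode `j` on at most `X` photons -/
def an (X : ℕ) (j : Fin n) : Matrix (Ct n X) (Ct n X) ℂ := fun k l =>
  if l.1 = up k.1 j then ((Real.sqrt (l.1 j) : ℝ) : ℂ) else 0

/-- extension by zero / restriction between two cuts: the matrix of the inclusion -/
def inc (X Y : ℕ) : Matrix (Ct n X) (Ct n Y) ℂ := fun k l => if k.1 = l.1 then 1 else 0

/-- lowering an element of a cut -/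
def dn {X : ℕ} (k : Ct n X) (j : Fin n) : Ct n X := ⟨down k.1 j, (sum_down_le k.1 j).trans k.2⟩

/-- lowering an element of a cut to the smaller cut, when possible -/
def dn' {X : ℕ} (k : Ct n (X + 1)) (j : Fin n) (h : k.1 j ≠ 0) : Ct n X :=
  ⟨down k.1 j, by have := sum_down k.1 j h; have := k.2; omega⟩

/-- raising an element of a cut -/
def upp {X : ℕ} (k : Ct n X) (j : Fin n) : Ct n (X + 1) :=
  ⟨up k.1 j, by rw [sum_up]; have := k.2; omega⟩

theorem mul_an {ι : Type} (X : ℕ) (j : Fin n) (A : Matrix ι (Ct n X) ℂ) (x : ι) (l : Ct n X) :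
    (A * an X j) x l = ((Real.sqrt (l.1 j) : ℝ) : ℂ) * A x (dn l j) := by
  rw [Matrix.mul_apply]
  by_cases hl : l.1 j = 0
  · rw [hl, Nat.cast_zero, Real.sqrt_zero, Complex.ofReal_zero, zero_mul]
    refine Finset.sum_eq_zero fun y _ => ?_
    have h : l.1 ≠ up y.1 j := fun h => by
      have := congrFun h j
      rw [up_same] at this
      omega
    simp [an, h]
  · rw [Finset.sum_eq_single (dn l j)]
    · have h : l.1 = up (dn l j).1 j := (up_down l.1 j hl).symm
      unfold an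
      rw [if_pos h]
      ring
    · intro y _ hy
      have h : l.1 ≠ up y.1 j := fun h => hy (Subtype.ext (by
        show y.1 = down l.1 j
        rw [h, down_up]))
      simp [an, h]
    · intro h
      exact absurd (Finset.mem_univ _) h

theorem mul_annR {ι : Type} (X : ℕ) (j : Fin n) (A : Matrix ι (Ct n X) ℂ) (x : ι)
    (l : Ct n (X + 1)) (hl : l.1 j ≠ 0) :
    (A * annR X j) x l = ((Real.sqrt (l.1 j) : ℝ) : ℂ) * A x (dn' l j hl) := by
  rw [Matrix.mul_apply, Finset.sum_eq_single (dn' l j hl)]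
  · have h : l.1 = up (dn' l j hl).1 j := (up_down l.1 j hl).symm
    unfold annR
    rw [if_pos h]
    ring
  · intro y _ hy
    have h : l.1 ≠ up y.1 j := fun h => hy (Subtype.ext (by
      show y.1 = down l.1 j
      rw [h, down_up]))
    simp [annR, h]
  · intro h
    exact absurd (Finset.mem_univ _) h

theorem mul_annR_zero {ι : Type} (X : ℕ) (j : Fin n) (A : Matrix ι (Ct n X) ℂ) (x : ι)
    (l : Ct n (X + 1)) (hl : l.1 j = 0) : (A * annR X j) x l = 0 := by
  rw [Matrix.mul_apply]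
  refine Finset.sum_eq_zero fun y _ => ?_
  have h : l.1 ≠ up y.1 j := fun h => by
    have := congrFun h j
    rw [up_same] at this
    omega
  simp [annR, h]

theorem annR_mul {ι : Type} (X : ℕ) (j : Fin n) (A : Matrix (Ct n (X + 1)) ι ℂ) (k : Ct n X)
    (x : ι) : (annR X j * A) k x = ((Real.sqrt (k.1 j + 1) : ℝ) : ℂ) * A (upp k j) x := by
  rw [Matrix.mul_apply, Finset.sum_eq_single (upp k j)]
  · unfold annR
    have h : (upp k j).1 = up k.1 j := rfl
    rw [if_pos h, h, up_same]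
    push_cast
    rfl
  · intro y _ hy
    have h : y.1 ≠ up k.1 j := fun h => hy (Subtype.ext h)
    simp [annR, h]
  · intro h
    exact absurd (Finset.mem_univ _) h

/-! ### the beam splitter matrix -/

/-- the beam splitter between cuts, entries `⟨m, r| U |k, l⟩ = ampn s t m r k l` -/
def bsW (s t : ℝ) (D₁ D₂ Y₁ Y₂ : ℕ) :
    Matrix (Ct n Y₁ × Ct n Y₂) (Ct n D₁ × Ct n D₂) ℂ := fun x y =>
  ((ampn s t x.1.1 x.2.1 y.1.1 y.2.1 : ℝ) : ℂ)

theorem sum_le_of_add {T m r : Conf n} (h : m + r = T) : ∑ j, m j ≤ ∑ j, T j := by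
  subst h
  refine Finset.sum_le_sum fun j _ => ?_
  simp only [Pi.add_apply]
  omega

theorem sum_conf_add (k l : Conf n) : ∑ j, (k + l) j = ∑ j, k j + ∑ j, l j := by
  simp only [Pi.add_apply, Finset.sum_add_distrib]

/-- a sum over a pair of cuts of a function living on one level -/
theorem sum_level {Y : ℕ} {T : Conf n} (hT : ∑ j, T j ≤ Y) (F : Conf n → Conf n → ℂ)
    (hF : ∀ m r, m + r ≠ T → F m r = 0) :
    ∑ x : Ct n Y × Ct n Y, F x.1.1 x.2.1 = ∑ m ∈ below T, F m (T - m) := by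
  classical
  rw [← Finset.sum_attach (below T) fun m => F m (T - m)]
  symm
  have h1 : ∀ m : {x // x ∈ below T}, ∑ j, m.1 j ≤ Y := fun m =>
    (sum_le_of_add (sub_add_of_mem m.2)).trans hT
  have h2 : ∀ m : {x // x ∈ below T}, ∑ j, (T - m.1) j ≤ Y := fun m =>
    (sum_le_of_add (by rw [add_comm]; exact sub_add_of_mem m.2)).trans hT
  refine Finset.sum_of_injOn (fun m => (⟨m.1, h1 m⟩, ⟨T - m.1, h2 m⟩)) ?_ ?_ ?_ ?_
  · intro m _ m' _ h
    have := congrArg (fun x : Ct n Y × Ct n Y => x.1.1) h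
    exact Subtype.ext this
  · intro m _
    exact Finset.mem_coe.2 (Finset.mem_univ _)
  · rintro ⟨x, y⟩ _ hx
    apply hF
    intro h
    apply hx
    obtain ⟨g1, g2⟩ := mem_below_of_add h
    exact ⟨⟨x.1, g1⟩, Finset.mem_coe.2 (Finset.mem_attach _ _),
      Prod.ext (Subtype.ext rfl) (Subtype.ext g2)⟩
  · intro m _
    rfl

theorem bsW_isometry (h : s ^ 2 + c ^ 2 = 1) {D₁ D₂ Y : ℕ} (hY : D₁ + D₂ ≤ Y) :
    (bsW (n := n) s c D₁ D₂ Y Y)ᴴ * (bsW (n := n) s c D₁ D₂ Y Y) = 1 := by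
  ext ⟨k, l⟩ ⟨k', l'⟩
  rw [Matrix.mul_apply]
  simp only [Matrix.conjTranspose_apply, bsW]
  have hT : ∑ j, (k.1 + l.1) j ≤ Y := by
    rw [sum_conf_add]
    have := k.2
    have := l.2
    omega
  have e : ∀ x : Ct n Y × Ct n Y, star ((ampn s c x.1.1 x.2.1 k.1 l.1 : ℝ) : ℂ) *
      ((ampn s c x.1.1 x.2.1 k'.1 l'.1 : ℝ) : ℂ) =
      (fun m r : Conf n => ((ampn s c m r k.1 l.1 * ampn s c m r k'.1 l'.1 : ℝ) : ℂ))
        x.1.1 x.2.1 := fun x => by
    rw [Complex.star_def, Complex.conj_ofReal]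
    push_cast
    rfl
  rw [Finset.sum_congr rfl fun x _ => e x, sum_level hT
    (fun m r : Conf n => ((ampn s c m r k.1 l.1 * ampn s c m r k'.1 l'.1 : ℝ) : ℂ))]
  · by_cases hT' : k'.1 + l'.1 = k.1 + l.1
    · obtain ⟨h1, h2⟩ := mem_below_of_add (T := k.1 + l.1) rfl
      obtain ⟨h3, h4⟩ := mem_below_of_add hT'
      have h5 := coln_orth h h1 h3
      rw [h2, h4] at h5
      rw [← Complex.ofReal_sum, h5, Matrix.one_apply]
      by_cases hk : k = k'
      · subst hk
        have hl : l = l' := Subtype.ext (by rw [← h2, ← h4])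
        subst hl
        simp
      · have hk' : k.1 ≠ k'.1 := fun h => hk (Subtype.ext h)
        rw [if_neg hk', if_neg (fun h' => hk (Prod.ext_iff.mp h').1)]
        simp
    · rw [Matrix.one_apply, if_neg, Finset.sum_eq_zero]
      · intro m hm
        rw [ampn_hom (k := k'.1) (l := l'.1), mul_zero, Complex.ofReal_zero]
        rw [sub_add_of_mem hm]
        exact fun h' => hT' h'.symm
      · intro h'
        rw [Prod.ext_iff] at h'
        simp only at h'
        apply hT'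
        rw [h'.1, h'.2]
  · intro m r hmr
    rw [ampn_hom hmr, zero_mul, Complex.ofReal_zero]

/-! ### intertwining -/

theorem kron_one_mul {ι κ ε : Type} [Fintype κ] [Fintype ε] [DecidableEq ε]
    (X : Matrix ι κ ℂ) {γ : Type} (V : Matrix (κ × ε) γ ℂ) (x : ι × ε) (y : γ) :
    ((X ⊗ₖ (1 : Matrix ε ε ℂ)) * V) x y = (X * Matrix.of fun k y => V (k, x.2) y) x.1 y := by
  rw [Matrix.mul_apply, Matrix.mul_apply, Fintype.sum_prod_type]
  refine Finset.sum_congr rfl fun k _ => ?_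
  rw [Finset.sum_eq_single x.2]
  · rw [Matrix.kroneckerMap_apply, Matrix.one_apply_eq, mul_one, Matrix.of_apply]
  · intro r _ hr
    rw [Matrix.kroneckerMap_apply, Matrix.one_apply_ne hr.symm, mul_zero, zero_mul]
  · intro h
    exact absurd (Finset.mem_univ _) h

theorem one_kron_mul {κ ε φ : Type} [Fintype κ] [DecidableEq κ] [Fintype ε]
    (X : Matrix φ ε ℂ) {γ : Type} (V : Matrix (κ × ε) γ ℂ) (x : κ × φ) (y : γ) :
    (((1 : Matrix κ κ ℂ) ⊗ₖ X) * V) x y = (X * Matrix.of fun r y => V (x.1, r) y) x.2 y := by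
  rw [Matrix.mul_apply, Matrix.mul_apply, Fintype.sum_prod_type, Finset.sum_eq_single x.1]
  · refine Finset.sum_congr rfl fun k _ => ?_
    rw [Matrix.kroneckerMap_apply, Matrix.one_apply_eq, one_mul, Matrix.of_apply]
  · intro r _ hr
    refine Finset.sum_eq_zero fun k _ => ?_
    rw [Matrix.kroneckerMap_apply, Matrix.one_apply_ne hr.symm, zero_mul, zero_mul]
  · intro h
    exact absurd (Finset.mem_univ _) h

theorem mul_kron_one {ι κ ε : Type} [Fintype ι] [Fintype ε] [DecidableEq ε]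
    (X : Matrix ι κ ℂ) {γ : Type} (V : Matrix γ (ι × ε) ℂ) (x : γ) (y : κ × ε) :
    (V * (X ⊗ₖ (1 : Matrix ε ε ℂ))) x y = ((Matrix.of fun x k => V x (k, y.2)) * X) x y.1 := by
  rw [Matrix.mul_apply, Matrix.mul_apply, Fintype.sum_prod_type]
  refine Finset.sum_congr rfl fun k _ => ?_
  rw [Finset.sum_eq_single y.2]
  · rw [Matrix.kroneckerMap_apply, Matrix.one_apply_eq, mul_one, Matrix.of_apply]
  · intro r _ hr
    rw [Matrix.kroneckerMap_apply, Matrix.one_apply_ne hr, mul_zero, mul_zero]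
  · intro h
    exact absurd (Finset.mem_univ _) h

theorem mul_one_kron {κ ε φ : Type} [Fintype κ] [DecidableEq κ] [Fintype ε]
    (X : Matrix ε φ ℂ) {γ : Type} (V : Matrix γ (κ × ε) ℂ) (x : γ) (y : κ × φ) :
    (V * ((1 : Matrix κ κ ℂ) ⊗ₖ X)) x y = ((Matrix.of fun x r => V x (y.1, r)) * X) x y.2 := by
  rw [Matrix.mul_apply, Matrix.mul_apply, Fintype.sum_prod_type, Finset.sum_eq_single y.1]
  · refine Finset.sum_congr rfl fun k _ => ?_
    rw [Matrix.kroneckerMap_apply, Matrix.one_apply_eq, one_mul, Matrix.of_apply]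
  · intro r _ hr
    refine Finset.sum_eq_zero fun k _ => ?_
    rw [Matrix.kroneckerMap_apply, Matrix.one_apply_ne hr, zero_mul, mul_zero]
  · intro h
    exact absurd (Finset.mem_univ _) h

theorem an_mul {ι : Type} (X : ℕ) (j : Fin n) (F : Conf n → ι → ℂ) (k : Ct n X) (x : ι) :
    (an X j * (Matrix.of fun (y : Ct n X) x => F y.1 x)) k x =
      if ∑ i, up k.1 j i ≤ X then ((Real.sqrt (k.1 j + 1) : ℝ) : ℂ) * F (up k.1 j) x else 0 := by
  rw [Matrix.mul_apply]
  by_cases hk : ∑ i, up k.1 j i ≤ X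
  · rw [if_pos hk, Finset.sum_eq_single (⟨up k.1 j, hk⟩ : Ct n X)]
    · rw [Matrix.of_apply]
      unfold an
      rw [if_pos rfl]
      show ((Real.sqrt (up k.1 j j : ℕ) : ℝ) : ℂ) * _ = _
      rw [up_same]
      push_cast
      rfl
    · intro y _ hy
      have h : y.1 ≠ up k.1 j := fun h => hy (Subtype.ext h)
      simp [an, h]
    · intro h
      exact absurd (Finset.mem_univ _) h
  · rw [if_neg hk]
    refine Finset.sum_eq_zero fun y _ => ?_
    have h : y.1 ≠ up k.1 j := fun h => hk (h ▸ y.2)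
    simp [an, h]

theorem bsW_low_fst {D₁ D₂ Y₁ Y₂ : ℕ} (hY : D₁ + D₂ ≤ Y₁) (j : Fin n) :
    (an Y₁ j ⊗ₖ (1 : Matrix (Ct n Y₂) (Ct n Y₂) ℂ)) * (bsW (n := n) s c D₁ D₂ Y₁ Y₂) =
      (bsW (n := n) s c D₁ D₂ Y₁ Y₂) * ((s : ℂ) • (an D₁ j ⊗ₖ (1 : Matrix (Ct n D₂) (Ct n D₂) ℂ)) +
        (c : ℂ) • ((1 : Matrix (Ct n D₁) (Ct n D₁) ℂ) ⊗ₖ an D₂ j)) := by
  ext ⟨m, r⟩ ⟨k, l⟩
  rw [Matrix.mul_add, Matrix.mul_smul, Matrix.mul_smul, Matrix.add_apply, Matrix.smul_apply,
    Matrix.smul_apply, kron_one_mul, mul_kron_one, mul_one_kron, mul_an, mul_an]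
  simp only [Matrix.of_apply, smul_eq_mul]
  have e := an_mul Y₁ j (fun m' (y : Ct n D₁ × Ct n D₂) =>
    ((ampn s c m' r.1 y.1.1 y.2.1 : ℝ) : ℂ)) m (k, l)
  have e' : (an Y₁ j * Matrix.of fun (k : Ct n Y₁) y => (bsW (n := n) s c D₁ D₂ Y₁ Y₂) (k, r) y) m (k, l) =
      (an Y₁ j * Matrix.of fun (y : Ct n Y₁) (x : Ct n D₁ × Ct n D₂) =>
        ((ampn s c y.1 r.1 x.1.1 x.2.1 : ℝ) : ℂ)) m (k, l) := rfl
  rw [e', e]
  have h := ampn_upA s c j m.1 r.1 k.1 l.1
  have h' : (((Real.sqrt (m.1 j + 1) : ℝ) : ℂ) * ((ampn s c (up m.1 j) r.1 k.1 l.1 : ℝ) : ℂ)) =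
      (s : ℂ) * (((Real.sqrt (k.1 j) : ℝ) : ℂ) * (bsW (n := n) s c D₁ D₂ Y₁ Y₂) (m, r) (dn k j, l)) +
      (c : ℂ) * (((Real.sqrt (l.1 j) : ℝ) : ℂ) * (bsW (n := n) s c D₁ D₂ Y₁ Y₂) (m, r) (k, dn l j)) := by
    have := congrArg (fun x : ℝ => (x : ℂ)) h
    push_cast at this
    rw [this]
    simp only [bsW, dn]
    ring
  rw [← h']
  split_ifs with hk
  · rfl
  · rw [ampn_hom, Complex.ofReal_zero, mul_zero]
    intro h1
    apply hk
    have h2 := sum_le_of_add (m := up m.1 j) (r := r.1) h1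
    rw [sum_conf_add] at h2
    have := k.2
    have := l.2
    omega

theorem bsW_low_snd {D₁ D₂ Y₁ Y₂ : ℕ} (hY : D₁ + D₂ ≤ Y₂) (j : Fin n) :
    ((1 : Matrix (Ct n Y₁) (Ct n Y₁) ℂ) ⊗ₖ an Y₂ j) * (bsW (n := n) s c D₁ D₂ Y₁ Y₂) =
      (bsW (n := n) s c D₁ D₂ Y₁ Y₂) * (((-c : ℝ) : ℂ) • (an D₁ j ⊗ₖ (1 : Matrix (Ct n D₂) (Ct n D₂) ℂ)) +
        (s : ℂ) • ((1 : Matrix (Ct n D₁) (Ct n D₁) ℂ) ⊗ₖ an D₂ j)) := by
  ext ⟨m, r⟩ ⟨k, l⟩
  rw [Matrix.mul_add, Matrix.mul_smul, Matrix.mul_smul, Matrix.add_apply, Matrix.smul_apply,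
    Matrix.smul_apply, one_kron_mul, mul_kron_one, mul_one_kron, mul_an, mul_an]
  simp only [Matrix.of_apply, smul_eq_mul]
  have e := an_mul Y₂ j (fun r' (y : Ct n D₁ × Ct n D₂) =>
    ((ampn s c m.1 r' y.1.1 y.2.1 : ℝ) : ℂ)) r (k, l)
  have e' : (an Y₂ j * Matrix.of fun (r : Ct n Y₂) y => (bsW (n := n) s c D₁ D₂ Y₁ Y₂) (m, r) y) r (k, l) =
      (an Y₂ j * Matrix.of fun (y : Ct n Y₂) (x : Ct n D₁ × Ct n D₂) =>
        ((ampn s c m.1 y.1 x.1.1 x.2.1 : ℝ) : ℂ)) r (k, l) := rfl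
  rw [e', e]
  have h := ampn_upB s c j m.1 r.1 k.1 l.1
  have h' : (((Real.sqrt (r.1 j + 1) : ℝ) : ℂ) * ((ampn s c m.1 (up r.1 j) k.1 l.1 : ℝ) : ℂ)) =
      ((-c : ℝ) : ℂ) * (((Real.sqrt (k.1 j) : ℝ) : ℂ) * (bsW (n := n) s c D₁ D₂ Y₁ Y₂) (m, r) (dn k j, l)) +
      (s : ℂ) * (((Real.sqrt (l.1 j) : ℝ) : ℂ) * (bsW (n := n) s c D₁ D₂ Y₁ Y₂) (m, r) (k, dn l j)) := by
    have := congrArg (fun x : ℝ => (x : ℂ)) h
    push_cast at this
    rw [this]
    simp only [bsW, dn]
    push_cast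
    ring
  rw [← h']
  split_ifs with hk
  · rfl
  · rw [ampn_hom, Complex.ofReal_zero, mul_zero]
    intro h1
    apply hk
    rw [add_comm] at h1
    have h2 := sum_le_of_add (m := up r.1 j) (r := m.1) h1
    rw [sum_conf_add] at h2
    have := k.2
    have := l.2
    omega

/-! ### number operators and the top layer -/

theorem an_apply (X : ℕ) (j : Fin n) (k l : Ct n X) :
    an X j k l = if l.1 = up k.1 j then ((Real.sqrt (l.1 j) : ℝ) : ℂ) else 0 := rfl

theorem star_sqrt (x : ℝ) : star ((Real.sqrt x : ℝ) : ℂ) = ((Real.sqrt x : ℝ) : ℂ) := by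
  rw [Complex.star_def, Complex.conj_ofReal]

theorem anH_mul_an (X : ℕ) (j : Fin n) :
    (an (n := n) X j)ᴴ * an X j = Matrix.diagonal fun k => ((k.1 j : ℕ) : ℂ) := by
  ext k l
  rw [mul_an, Matrix.conjTranspose_apply, an_apply, Matrix.diagonal_apply]
  by_cases hl : l.1 j = 0
  · rw [hl, Nat.cast_zero, Real.sqrt_zero, Complex.ofReal_zero, zero_mul]
    split_ifs with h
    · rw [h, hl, Nat.cast_zero]
    · rfl
  · have h1 : up (dn l j).1 j = l.1 := up_down l.1 j hl
    rw [h1]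
    by_cases h : k = l
    · subst h
      rw [if_pos rfl, if_pos rfl, star_sqrt, ← Complex.ofReal_mul, Real.mul_self_sqrt
        (Nat.cast_nonneg _), Complex.ofReal_natCast]
    · rw [if_neg h, if_neg (fun h' => h (Subtype.ext h')), star_zero, mul_zero]

theorem an_mul_anH (X : ℕ) (j : Fin n) :
    an (n := n) X j * (an X j)ᴴ =
      Matrix.diagonal fun k => if ∑ i, k.1 i < X then ((k.1 j : ℕ) : ℂ) + 1 else 0 := by
  ext k l
  rw [Matrix.mul_apply, Matrix.diagonal_apply]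
  by_cases hk : ∑ i, up k.1 j i ≤ X
  · rw [Finset.sum_eq_single (⟨up k.1 j, hk⟩ : Ct n X)]
    · rw [Matrix.conjTranspose_apply, an_apply, an_apply, if_pos rfl]
      have h1 : ∑ i, k.1 i < X := by
        rw [sum_up] at hk
        omega
      rw [if_pos h1]
      by_cases h : k = l
      · subst h
        rw [if_pos rfl, if_pos rfl, star_sqrt, ← Complex.ofReal_mul, Real.mul_self_sqrt
          (Nat.cast_nonneg _), Complex.ofReal_natCast]
        show ((up k.1 j j : ℕ) : ℂ) = _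
        rw [up_same]
        push_cast
        rfl
      · rw [if_neg h, if_neg (fun h' => h (Subtype.ext (up_inj h'))), star_zero, mul_zero]
    · intro y _ hy
      rw [an_apply, if_neg (fun h => hy (Subtype.ext h)), zero_mul]
    · intro h
      exact absurd (Finset.mem_univ _) h
  · have h1 : ¬ ∑ i, k.1 i < X := by
      rw [sum_up] at hk
      omega
    rw [if_neg h1, ite_self]
    refine Finset.sum_eq_zero fun y _ => ?_
    have hy : y.1 ≠ up k.1 j := fun h => hk (h ▸ y.2)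
    rw [an_apply, if_neg hy, zero_mul]

/-- the defect `a† a + 1 - a a†` lives on the top layer -/
theorem tp_eq (X : ℕ) (j : Fin n) :
    (an (n := n) X j)ᴴ * an X j + 1 - an X j * (an X j)ᴴ =
      Matrix.diagonal fun k => if ∑ i, k.1 i < X then 0 else ((k.1 j : ℕ) : ℂ) + 1 := by
  rw [anH_mul_an, an_mul_anH, ← Matrix.diagonal_one, Matrix.diagonal_add, Matrix.diagonal_sub]
  congr 1
  funext k
  split_ifs
  · ring
  · ring

theorem tp_posSemidef (X : ℕ) (j : Fin n) :
    ((an (n := n) X j)ᴴ * an X j + 1 - an X j * (an X j)ᴴ).PosSemidef := by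
  rw [tp_eq]
  refine Matrix.PosSemidef.diagonal fun k => ?_
  split_ifs
  · exact le_rfl
  · have : (0 : ℂ) ≤ ((((k.1 j : ℕ) : ℝ) + 1 : ℝ) : ℂ) := by
      rw [Complex.zero_le_real]
      positivity
    simpa using this

theorem tp_mul_an (X : ℕ) (j i : Fin n) :
    ((an (n := n) X j)ᴴ * an X j + 1 - an X j * (an X j)ᴴ) * an X i = 0 := by
  rw [tp_eq]
  ext k l
  rw [Matrix.diagonal_mul, an_apply, Matrix.zero_apply]
  by_cases h : l.1 = up k.1 i
  · have h1 : ∑ i, k.1 i < X := by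
      have := l.2
      rw [h, sum_up] at this
      omega
    rw [if_pos h1, zero_mul]
  · rw [if_neg h, mul_zero]

end

end Vale.Agent.P369.H688
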