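import Vale.Agent.P369.FD.Stmts
import Vale.Agent.P369.H688.Amp

/-!
P369 (helper688), package BS of the finite-matrix track: the beam splitter on total-photon-number
cuts satisfies `Split`.
-/

set_option linter.all false

namespace Vale.Agent.P369.FD

open Matrix
open Vale.Agent.P369 (Conf up down ampn g)
open Vale.Agent.P369A (Ct)
open scoped Kronecker ComplexOrder

noncomputable section

variable {n : ℕ}

theorem low_eq_an (X : ℕ) (j : Fin n) : low (n := n) X j = H688.an X j := rfl

theorem nm_low (X : ℕ) : nm (low (n := n) X) = fnum X fun k => (k : ℝ) := by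
  unfold nm fnum
  simp only [low_eq_an, H688.anH_mul_an]
  ext k l
  rw [Matrix.sum_apply]
  simp only [Matrix.diagonal_apply]
  by_cases h : k = l
  · subst h
    simp only [if_true]
    push_cast
    rfl
  · simp only [if_neg h, Finset.sum_const_zero]

theorem ladder_low (X : ℕ) : Ladder (low (n := n) X) := by
  refine ⟨?_, ?_, ?_, ?_⟩
  · intro j
    rw [nm_low]
    unfold fnum
    ext k l
    rw [Matrix.sub_apply, Matrix.mul_diagonal, Matrix.diagonal_mul]
    unfold low
    by_cases h : l.1 = up k.1 j
    · rw [if_pos h]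
      have h1 : ∑ i, l.1 i = ∑ i, k.1 i + 1 := by rw [h, H688.sum_up]
      rw [h1]
      push_cast
      ring
    · rw [if_neg h, zero_mul, mul_zero, sub_zero]
  · intro j
    exact H688.tp_posSemidef X j
  · intro j
    exact H688.tp_mul_an X j j
  · intro j
    rw [Matrix.trace]
    refine Finset.sum_eq_zero fun k _ => ?_
    rw [Matrix.diag_apply]
    unfold low
    rw [if_neg]
    intro h
    have := congrFun h j
    rw [up_same] at this
    omega

theorem bsW_eq (η : ℝ) (D : ℕ) :
    bsW n η D = H688.bsW (Real.sqrt η) (Real.sqrt (1 - η)) D D (2 * D) (2 * D) := rfl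

/-- package BS -/
theorem thm_BS : S_BS := by
  intro n η h0 h1 D
  have hs : Real.sqrt η ^ 2 = η := Real.sq_sqrt h0
  have ht : Real.sqrt (1 - η) ^ 2 = 1 - η := Real.sq_sqrt (by linarith)
  have h : Real.sqrt η ^ 2 + Real.sqrt (1 - η) ^ 2 = 1 := by rw [hs, ht]; ring
  refine ⟨h, ?_, ?_, ?_, ?_, ?_, ladder_low D, ladder_low D, ladder_low (2 * D),
    ladder_low (2 * D), ?_, ?_, ?_⟩
  · rw [neg_sq, hs, ht]; ring
  · rw [neg_sq, hs, ht]; ring
  · rw [hs, ht]; ring
  · ring
  · ring
  · rw [bsW_eq]
    exact H688.bsW_isometry h (by omega)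
  · intro j
    rw [bsW_eq]
    exact H688.bsW_low_fst (by omega) j
  · intro j
    rw [bsW_eq]
    exact H688.bsW_low_snd (by omega) j

end

end Vale.Agent.P369.FD
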