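import Vale.Agent.P369.FD.MainStmts
import Vale.Agent.P369.H63.Rel
import Vale.Agent.P369.H688.BS

/-!
P369 (helper688), packages LG, HB, CARD of the finite-matrix track: norm bounds.
-/

set_option linter.all false

namespace Vale.Agent.P369.FD

open Matrix
open Vale.Agent.P369 (Conf up down ampn g)
open Vale.Agent.P369A (Ct)
open scoped Kronecker ComplexOrder

noncomputable section

/-! ### dimension -/

theorem thm_CARD : S_CARD := by
  intro n X
  have h : Fintype.card (Ct n X) ≤ Fintype.card (Fin n → Fin (X + 1)) :=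
    Fintype.card_le_of_injective
      (fun (x : Ct n X) (j : Fin n) => (⟨x.1 j, Nat.lt_succ_of_le
        ((Finset.single_le_sum (f := fun i => x.1 i) (fun _ _ => Nat.zero_le _)
          (Finset.mem_univ j)).trans x.2)⟩ : Fin (X + 1)))
      (fun x y h => Subtype.ext (funext fun j => by simpa using congrFun h j))
  rw [Fintype.card_fun, Fintype.card_fin, Fintype.card_fin] at h
  exact_mod_cast h

/-! ### the logarithm of `C₀ + e` -/

section lg

variable {κ : Type} [Fintype κ] [DecidableEq κ]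

theorem dg_add {A U : Matrix κ κ ℂ} {p : κ → ℝ} (h : H63.Dg A U p) (e : ℝ) :
    H63.Dg (A + ((e : ℝ) : ℂ) • 1) U (fun i => p i + e) := by
  refine ⟨h.ct, h.tc, ?_⟩
  have h1 : diagonal (fun i => ((p i + e : ℝ) : ℂ)) =
      diagonal (fun i => (p i : ℂ)) + ((e : ℝ) : ℂ) • (1 : Matrix κ κ ℂ) := by
    ext i j
    by_cases hij : i = j
    · subst hij
      simp
    · simp [hij]
  rw [h1, Matrix.mul_add, Matrix.add_mul, ← h.eq, Matrix.mul_smul, Matrix.smul_mul, Matrix.mul_one,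
    h.tc]

theorem psd_of_dg {A U : Matrix κ κ ℂ} {p : κ → ℝ} (h : H63.Dg A U p) (hp : ∀ i, 0 ≤ p i) :
    A.PosSemidef := by
  rw [h.eq]
  refine Matrix.PosSemidef.mul_mul_conjTranspose_same (Matrix.PosSemidef.diagonal fun i => ?_) U
  exact Complex.zero_le_real.2 (hp i)

theorem thm_LG : S_LG := by
  intro κ _ _ D C₀ C h0 hC
  have hU := H63.dg_of_herm h0.1.isHermitian
  set U := (h0.1.isHermitian.eigenvectorUnitary : Matrix κ κ ℂ) with hUdef
  set q := h0.1.isHermitian.eigenvalues with hq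
  have hq0 : ∀ i, 0 ≤ q i := fun i => h0.1.eigenvalues_nonneg i
  have hq1 : ∑ i, q i = 1 := by
    have := hU.trace
    rw [h0.2] at this
    have h2 : ((∑ i, q i : ℝ) : ℂ) = ((1 : ℝ) : ℂ) := by
      push_cast
      exact this.symm
    exact_mod_cast h2
  have hq2 : ∀ i, q i ≤ 1 := fun i => by
    rw [← hq1]
    exact Finset.single_le_sum (fun j _ => hq0 j) (Finset.mem_univ i)
  have he : 0 < eD D := Real.exp_pos _
  have he1 : eD D ≤ 1 := by
    unfold eD
    rw [Real.exp_le_one_iff]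
    simp
  have hCU : H63.Dg C U (fun i => q i + eD D) := by
    rw [hC]
    exact dg_add hU _
  constructor
  · rw [hC]
    refine Matrix.PosDef.posSemidef_add h0.1 ?_
    have h3 : ((eD D : ℝ) : ℂ) • (1 : Matrix κ κ ℂ) = diagonal fun _ => ((eD D : ℝ) : ℂ) := by
      ext i j
      by_cases hij : i = j
      · subst hij
        simp
      · simp [hij]
    rw [h3]
    exact Matrix.PosDef.diagonal fun _ => Complex.zero_lt_real.2 he
  · have h4 : Lg C = U * diagonal (fun i => ((Real.log (q i + eD D) : ℝ) : ℂ)) * Uᴴ := by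
      unfold Lg
      exact hCU.cfc _
    have h5 : Lg C * Lg C =
        U * diagonal (fun i => ((Real.log (q i + eD D) * Real.log (q i + eD D) : ℝ) : ℂ)) * Uᴴ := by
      rw [h4]
      calc U * diagonal (fun i => ((Real.log (q i + eD D) : ℝ) : ℂ)) * Uᴴ *
          (U * diagonal (fun i => ((Real.log (q i + eD D) : ℝ) : ℂ)) * Uᴴ)
          = U * (diagonal (fun i => ((Real.log (q i + eD D) : ℝ) : ℂ)) * ((Uᴴ * U) *
            diagonal (fun i => ((Real.log (q i + eD D) : ℝ) : ℂ)))) * Uᴴ := by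
            simp only [Matrix.mul_assoc]
        _ = _ := by
            rw [hU.ct, Matrix.one_mul, diagonal_mul_diagonal]
            push_cast
            rfl
    have h6 : H63.Dg (((((D : ℝ) + 1) ^ 2 : ℝ) : ℂ) • (1 : Matrix κ κ ℂ) - Lg C * Lg C) U
        (fun i => ((D : ℝ) + 1) ^ 2 - Real.log (q i + eD D) * Real.log (q i + eD D)) := by
      refine ⟨hU.ct, hU.tc, ?_⟩
      rw [h5]
      have h7 : diagonal (fun i => ((((D : ℝ) + 1) ^ 2 -
          Real.log (q i + eD D) * Real.log (q i + eD D) : ℝ) : ℂ)) =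
          ((((D : ℝ) + 1) ^ 2 : ℝ) : ℂ) • (1 : Matrix κ κ ℂ) -
          diagonal (fun i => ((Real.log (q i + eD D) * Real.log (q i + eD D) : ℝ) : ℂ)) := by
        ext i j
        by_cases hij : i = j
        · subst hij
          simp
        · simp [hij]
      rw [h7, Matrix.mul_sub, Matrix.sub_mul, Matrix.mul_smul, Matrix.smul_mul, Matrix.mul_one,
        hU.tc]
    refine psd_of_dg h6 fun i => ?_
    have h8 : Real.log (q i + eD D) ≤ (D : ℝ) + 1 := by
      have h9 : q i + eD D ≤ 2 := by linarith [hq2 i]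
      have h10 : 0 < q i + eD D := by linarith [hq0 i]
      have := Real.log_le_sub_one_of_pos h10
      have h11 : (0 : ℝ) ≤ D := Nat.cast_nonneg _
      linarith
    have h12 : -((D : ℝ) + 1) ≤ Real.log (q i + eD D) := by
      have h13 : Real.log (eD D) ≤ Real.log (q i + eD D) :=
        Real.log_le_log he (by linarith [hq0 i])
      unfold eD at h13
      rw [Real.log_exp] at h13
      unfold eD
      linarith
    nlinarith [h8, h12]

end lg

/-! ### operator norms -/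

section norms

open scoped Matrix.Norms.L2Operator

variable {κ μ : Type} [Fintype κ] [DecidableEq κ] [Fintype μ] [DecidableEq μ]

theorem dot_star_self (x : κ → ℂ) : star x ⬝ᵥ x = ((∑ i, ‖x i‖ ^ 2 : ℝ) : ℂ) := by
  rw [dotProduct]
  push_cast
  refine Finset.sum_congr rfl fun i _ => ?_
  rw [Pi.star_apply, Complex.star_def, ← Complex.normSq_eq_conj_mul_self, Complex.normSq_eq_norm_sq]
  push_cast
  rfl

theorem psd_iff_bound (M : Matrix μ κ ℂ) (h : ℝ) :
    (((h ^ 2 : ℝ) : ℂ) • (1 : Matrix κ κ ℂ) - Mᴴ * M).PosSemidef ↔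
      ∀ x : κ → ℂ, ∑ i, ‖(M *ᵥ x) i‖ ^ 2 ≤ h ^ 2 * ∑ i, ‖x i‖ ^ 2 := by
  have key : ∀ x : κ → ℂ, star x ⬝ᵥ ((((h ^ 2 : ℝ) : ℂ) • (1 : Matrix κ κ ℂ) - Mᴴ * M) *ᵥ x) =
      ((h ^ 2 * ∑ i, ‖x i‖ ^ 2 - ∑ i, ‖(M *ᵥ x) i‖ ^ 2 : ℝ) : ℂ) := by
    intro x
    rw [Matrix.sub_mulVec, Matrix.smul_mulVec, Matrix.one_mulVec, dotProduct_sub, dotProduct_smul,
      dot_star_self, ← Matrix.mulVec_mulVec, Matrix.dotProduct_mulVec, Matrix.vecMul_conjTranspose,
      star_star, dot_star_self, smul_eq_mul]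
    push_cast
    rfl
  constructor
  · intro H x
    have := H.dotProduct_mulVec_nonneg x
    rw [key, Complex.zero_le_real] at this
    linarith
  · intro H
    refine Matrix.PosSemidef.of_dotProduct_mulVec_nonneg ?_ fun x => ?_
    · unfold Matrix.IsHermitian
      rw [conjTranspose_sub, conjTranspose_smul, conjTranspose_one, conjTranspose_mul,
        conjTranspose_conjTranspose, Complex.star_def, Complex.conj_ofReal]
    · rw [key, Complex.zero_le_real]
      linarith [H x]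

theorem norm_le_of_psd {M : Matrix μ κ ℂ} {h : ℝ} (hh : 0 ≤ h)
    (H : (((h ^ 2 : ℝ) : ℂ) • (1 : Matrix κ κ ℂ) - Mᴴ * M).PosSemidef) : ‖M‖ ≤ h := by
  rw [Matrix.l2_opNorm_def]
  refine ContinuousLinearMap.opNorm_le_bound _ hh fun x => ?_
  have h1 := (psd_iff_bound M h).1 H x.ofLp
  have h2 : ‖x‖ ^ 2 = ∑ i, ‖x.ofLp i‖ ^ 2 := EuclideanSpace.norm_sq_eq x
  refine abs_le_of_sq_le_sq' ?_ (by positivity) |>.2
  rw [EuclideanSpace.norm_sq_eq, mul_pow, h2]
  exact h1

theorem psd_of_norm_le {M : Matrix μ κ ℂ} {h : ℝ} (H : ‖M‖ ≤ h) :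
    (((h ^ 2 : ℝ) : ℂ) • (1 : Matrix κ κ ℂ) - Mᴴ * M).PosSemidef := by
  rw [psd_iff_bound]
  intro x
  have h1 := Matrix.l2_opNorm_mulVec M (WithLp.toLp 2 x)
  have h2 : ‖(WithLp.toLp 2 x : EuclideanSpace ℂ κ)‖ ^ 2 = ∑ i, ‖x i‖ ^ 2 :=
    EuclideanSpace.norm_sq_eq _
  have h3 : ‖(WithLp.toLp 2 (M *ᵥ x) : EuclideanSpace ℂ μ)‖ ^ 2 = ∑ i, ‖(M *ᵥ x) i‖ ^ 2 :=
    EuclideanSpace.norm_sq_eq _
  rw [← h2, ← h3, ← mul_pow]
  refine pow_le_pow_left₀ (norm_nonneg _) (h1.trans ?_) 2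
  exact mul_le_mul_of_nonneg_right H (norm_nonneg _)

theorem norm_low_le {n : ℕ} (X : ℕ) (j : Fin n) : ‖low (n := n) X j‖ ≤ Real.sqrt X := by
  refine norm_le_of_psd (Real.sqrt_nonneg _) ?_
  rw [low_eq_an, H688.anH_mul_an, Real.sq_sqrt (Nat.cast_nonneg _)]
  have h : (((X : ℝ)) : ℂ) • (1 : Matrix (Ct n X) (Ct n X) ℂ) -
      diagonal (fun k : Ct n X => ((k.1 j : ℕ) : ℂ)) =
      diagonal fun k : Ct n X => ((((X : ℝ) - (k.1 j : ℕ)) : ℝ) : ℂ) := by
    ext k l
    by_cases hkl : k = l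
    · subst hkl
      simp
    · simp [hkl]
  rw [h]
  refine Matrix.PosSemidef.diagonal fun k => ?_
  refine Complex.zero_le_real.2 (sub_nonneg.2 ?_)
  exact_mod_cast (Finset.single_le_sum (f := fun i => k.1 i) (fun _ _ => Nat.zero_le _)
    (Finset.mem_univ j)).trans k.2

theorem lg_herm (C : Matrix κ κ ℂ) : (Lg C)ᴴ = Lg C := by
  have h : IsSelfAdjoint (Lg C) := cfc_predicate Real.log C
  exact h

theorem norm_ladH_le {n X : ℕ} (j : Fin n) (C : Matrix (Ct n X) (Ct n X) ℂ) {L bM : ℝ}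
    (hL : 0 ≤ L) (hb : 0 < bM)
    (H : (((L ^ 2 : ℝ) : ℂ) • (1 : Matrix (Ct n X) (Ct n X) ℂ) - Lg C * Lg C).PosSemidef) :
    ‖ladH bM (low X j) C‖ ≤ Real.sqrt X * (1 + 2 * L / bM) := by
  have h1 := norm_low_le (n := n) X j
  have h2 : ‖Lg C‖ ≤ L := norm_le_of_psd hL (by rw [lg_herm]; exact H)
  have h3 : ‖low X j * Lg C - Lg C * low X j‖ ≤ Real.sqrt X * L + L * Real.sqrt X := by
    refine (norm_sub_le _ _).trans (add_le_add ?_ ?_)
    · exact (Matrix.l2_opNorm_mul _ _).trans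
        (mul_le_mul h1 h2 (norm_nonneg _) (Real.sqrt_nonneg _))
    · exact (Matrix.l2_opNorm_mul _ _).trans (mul_le_mul h2 h1 (norm_nonneg _) hL)
  unfold ladH
  refine (norm_add_le _ _).trans ?_
  rw [norm_smul, Complex.norm_real, Real.norm_eq_abs, abs_of_pos (by positivity)]
  have h4 : 1 / bM * ‖low X j * Lg C - Lg C * low X j‖ ≤
      1 / bM * (Real.sqrt X * L + L * Real.sqrt X) :=
    mul_le_mul_of_nonneg_left h3 (by positivity)
  have h5 : Real.sqrt X * (1 + 2 * L / bM) =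
      Real.sqrt X + 1 / bM * (Real.sqrt X * L + L * Real.sqrt X) := by
    field_simp
    ring
  rw [h5]
  linarith

end norms

/-! ### traces -/

section traces

theorem tr_conj_mul_self_re {α β : Type} [Fintype α] [Fintype β]
    (P : Matrix α β ℂ) : (Pᴴ * P).trace.re = ∑ j, ∑ i, ‖P i j‖ ^ 2 := by
  rw [Matrix.trace, Complex.re_sum]
  refine Finset.sum_congr rfl fun j _ => ?_
  rw [Matrix.diag_apply, Matrix.mul_apply, Complex.re_sum]
  refine Finset.sum_congr rfl fun i _ => ?_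
  rw [Matrix.conjTranspose_apply, Complex.star_def, ← Complex.normSq_eq_conj_mul_self,
    Complex.ofReal_re, Complex.normSq_eq_norm_sq]

/-- Cauchy-Schwarz for the Hilbert-Schmidt product -/
theorem norm_tr_le {α β : Type} [Fintype α] [Fintype β] (P Q : Matrix α β ℂ) :
    ‖(Pᴴ * Q).trace‖ ≤ Real.sqrt (Pᴴ * P).trace.re * Real.sqrt (Qᴴ * Q).trace.re := by
  rw [tr_conj_mul_self_re, tr_conj_mul_self_re]
  have e1 : ∀ R : Matrix α β ℂ, ∑ j, ∑ i, ‖R i j‖ ^ 2 = ∑ x : β × α, ‖R x.2 x.1‖ ^ 2 := fun R => by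
    rw [Fintype.sum_prod_type]
  rw [e1, e1]
  refine le_trans ?_ (Real.sum_mul_le_sqrt_mul_sqrt _ _ _)
  rw [Matrix.trace, Fintype.sum_prod_type]
  refine (norm_sum_le _ _).trans (Finset.sum_le_sum fun j _ => ?_)
  rw [Matrix.diag_apply, Matrix.mul_apply]
  refine (norm_sum_le _ _).trans (Finset.sum_le_sum fun i _ => ?_)
  rw [Matrix.conjTranspose_apply, norm_mul, norm_star]

/-- if `MᴴM ≤ h²` then `Tr MᴴM ≤ h² dim` -/
theorem tr_le_of_psd {κ : Type} [Fintype κ] [DecidableEq κ] {S : Matrix κ κ ℂ} {h : ℝ}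
    (H : (((h : ℝ) : ℂ) • (1 : Matrix κ κ ℂ) - S).PosSemidef) :
    S.trace.re ≤ (Fintype.card κ : ℝ) * h := by
  have h1 := H.trace_nonneg
  rw [Matrix.trace_sub, Matrix.trace_smul, Matrix.trace_one, smul_eq_mul] at h1
  have h2 := (Complex.le_def.1 h1).1
  rw [Complex.zero_re, Complex.sub_re, Complex.re_ofReal_mul, Complex.natCast_re] at h2
  linarith

end traces

theorem thm_HB : S_HB := by
  intro n X j C L bM h hC hL hb H hh
  have hN := norm_ladH_le j C hL hb H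
  rw [← hh] at hN
  have hh0 : 0 ≤ h := by
    rw [hh]
    have : 0 ≤ 2 * L / bM := by positivity
    exact mul_nonneg (Real.sqrt_nonneg _) (by linarith)
  have hP : (((h ^ 2 : ℝ) : ℂ) • (1 : Matrix (Ct n X) (Ct n X) ℂ) -
      ladH bM (low X j) C * (ladH bM (low X j) C)ᴴ).PosSemidef := by
    have := psd_of_norm_le (M := (ladH bM (low X j) C)ᴴ) (h := h) (by
      rw [Matrix.l2_opNorm_conjTranspose]
      exact hN)
    rwa [conjTranspose_conjTranspose] at this
  refine ⟨hP, ?_⟩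
  refine (Complex.abs_re_le_norm _).trans ((norm_tr_le _ _).trans ?_)
  have h1 : ((low (n := n) X j)ᴴ * low X j).trace.re ≤
      (Fintype.card (Ct n X) : ℝ) * Real.sqrt X ^ 2 := by
    refine tr_le_of_psd ?_
    exact psd_of_norm_le (norm_low_le X j)
  have h2 : ((ladH bM (low X j) C)ᴴ * ladH bM (low X j) C).trace.re ≤
      (Fintype.card (Ct n X) : ℝ) * h ^ 2 := by
    rw [Matrix.trace_mul_comm]
    exact tr_le_of_psd hP
  have hc : (0 : ℝ) ≤ Fintype.card (Ct n X) := Nat.cast_nonneg _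
  refine (mul_le_mul (Real.sqrt_le_sqrt h1) (Real.sqrt_le_sqrt h2) (Real.sqrt_nonneg _)
    (Real.sqrt_nonneg _)).trans ?_
  rw [← Real.sqrt_mul (by positivity), show (Fintype.card (Ct n X) : ℝ) * Real.sqrt X ^ 2 *
    ((Fintype.card (Ct n X) : ℝ) * h ^ 2) = ((Fintype.card (Ct n X) : ℝ) * (Real.sqrt X * h)) ^ 2 by
      ring]
  rw [Real.sqrt_sq (by positivity)]

end

end Vale.Agent.P369.FD
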